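import Vale.Agent.P098.Basic

/-! P098 S1/Euler: symmetry, trace and Euler relations of the jets up to order four.
Plan: symmetry from ContDiffAt.isSymmSndFDerivAt (apply it to u, to fderiv u, to D2 u, and differentiate the
eventual identities); traces by differentiating lap u = 0 (true near x since U is open); Euler relations by
differentiating t ↦ u (t • y) = t * u y at t = 1 for y near x and then differentiating in y. -/

open MeasureTheory Filter Topology Set Metric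
open scoped ContDiff RealInnerProductSpace NNReal

set_option maxSynthPendingDepth 3

noncomputable section

namespace Vale.Agent.P098

variable {d : ℕ}

/-- fourth derivative -/
def D4 (f : E d → ℝ) (x a : E d) : B3 d := fderiv ℝ (D3 f) x a

variable {u : E d → ℝ} {U : Set (E d)} {x : E d}

theorem s1e_zero {F : Type} [NormedAddCommGroup F] [NormedSpace ℝ F] {g : E d → F} (L : F →L[ℝ] ℝ)
    (hg : DifferentiableAt ℝ g x) (h : ∀ᶠ y in 𝓝 x, L (g y) = 0) (a : E d) :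
    L (fderiv ℝ g x a) = 0 := by
  have h1 : HasFDerivAt (fun y => L (g y)) (L.comp (fderiv ℝ g x)) x :=
    L.hasFDerivAt.comp x hg.hasFDerivAt
  exact congrArg (· a) (h1.unique ((hasFDerivAt_const (0 : ℝ) x).congr_of_eventuallyEq h))

theorem s1e_ev2 (v w : E d) : ∃ L : B2 d →L[ℝ] ℝ, ∀ M, L M = M v w :=
  ⟨(ContinuousLinearMap.apply ℝ ℝ w).comp (ContinuousLinearMap.apply ℝ (B1 d) v), fun _ => rfl⟩

theorem s1e_ev3 (a v w : E d) : ∃ L : B3 d →L[ℝ] ℝ, ∀ M, L M = M a v w := by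
  obtain ⟨L, hL⟩ := s1e_ev2 v w
  exact ⟨L.comp (ContinuousLinearMap.apply ℝ (B2 d) a), fun M => hL _⟩

theorem s1e_tr : ∃ L : B2 d →L[ℝ] ℝ, ∀ M, L M = tr M := by
  choose L hL using fun i : Fin d => s1e_ev2 (bv i) (bv i)
  exact ⟨∑ i, L i, fun M => by simp only [_root_.sum_apply, hL, tr]⟩

theorem s1e_ev {n : ℕ} (h : ContDiffAt ℝ n u x) : ∀ᶠ y in 𝓝 x, ContDiffAt ℝ n u y :=
  h.eventually (by simp)

theorem s1e_le (h : ContDiffAt ℝ ∞ u x) (n : ℕ) : ContDiffAt ℝ n u x :=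
  h.of_le (by exact_mod_cast le_top)

theorem s1e_s2 (h : ContDiffAt ℝ (2 : ℕ) u x) (v w : E d) : D2 u x v w = D2 u x w v :=
  (h.isSymmSndFDerivAt (by simp)).eq v w

theorem s1e_d1 (h : ContDiffAt ℝ (2 : ℕ) u x) : DifferentiableAt ℝ (fderiv ℝ u) x :=
  (h.fderiv_right (m := 1) (by norm_num)).differentiableAt one_ne_zero

theorem s1e_d2 (h : ContDiffAt ℝ (3 : ℕ) u x) : DifferentiableAt ℝ (D2 u) x :=
  ((h.fderiv_right (m := 2) (by norm_num)).fderiv_right (m := 1) (by norm_num)).differentiableAt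
    one_ne_zero

theorem s1e_s3 (h : ContDiffAt ℝ (3 : ℕ) u x) (a v : E d) : D3 u x a v = D3 u x v a :=
  ((h.fderiv_right (m := 2) (by norm_num)).isSymmSndFDerivAt (by simp)).eq a v

theorem s1e_s3' (h : ContDiffAt ℝ (3 : ℕ) u x) (a v w : E d) : D3 u x a v w = D3 u x a w v := by
  obtain ⟨L, hL⟩ := s1e_ev2 v w
  obtain ⟨L', hL'⟩ := s1e_ev2 w v
  have := s1e_zero (L - L') (s1e_d2 h) ((s1e_ev (n := 2) (h.of_le (by norm_num))).mono fun y hy => by
    rw [_root_.sub_apply, hL, hL', s1e_s2 hy, sub_self]) a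
  rwa [_root_.sub_apply, hL, hL', sub_eq_zero] at this

theorem s1e_eu1 (hom : Hom u) (h : DifferentiableAt ℝ u x) : fderiv ℝ u x x = u x := by
  have h1 : HasFDerivAt u (fderiv ℝ u x) ((1 : ℝ) • x) := by
    rw [one_smul]
    exact h.hasFDerivAt
  have h2 := h1.comp_hasDerivAt (1 : ℝ) ((hasDerivAt_id (1 : ℝ)).smul_const x)
  have h3 := (hasDerivAt_id (1 : ℝ)).mul_const (u x)
  rw [one_smul] at h2
  rw [one_mul] at h3
  exact h2.unique (h3.congr_of_eventuallyEq
    ((eventually_gt_nhds zero_lt_one).mono fun r hr => hom r hr x))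

theorem s1e_eu2 (hom : Hom u) (h : ContDiffAt ℝ (2 : ℕ) u x) : D2 u x x = 0 := by
  have h1 := (s1e_d1 h).hasFDerivAt.clm_apply (hasFDerivAt_id x)
  have h2 := (h.differentiableAt (by norm_num)).hasFDerivAt.congr_of_eventuallyEq
    ((s1e_ev h).mono fun y hy => s1e_eu1 hom (hy.differentiableAt (by norm_num)))
  ext a
  have h3 : fderiv ℝ u x a + D2 u x a x = fderiv ℝ u x a := congrArg (· a) (h1.unique h2)
  rw [s1e_s2 h]
  exact add_eq_left.1 h3

theorem s1_hasFDerivAt_grad (h : ContDiffAt ℝ ∞ u x) (a b : E d) :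
    fderiv ℝ (fun y => ⟪gradient u y, b⟫) x a = D2 u x a b := by
  have e : (fun y => ⟪gradient u y, b⟫) = fun y => fderiv ℝ u y b :=
    funext fun y => InnerProductSpace.toDual_symm_apply
  have h1 := (ContinuousLinearMap.apply ℝ ℝ b).hasFDerivAt.comp x (s1e_d1 (s1e_le h 2)).hasFDerivAt
  rw [e]
  exact congrArg (· a) h1.fderiv

theorem s1_contDiffAt_grad (h : ContDiffAt ℝ ∞ u x) : ContDiffAt ℝ ∞ (gradient u) x :=
  (InnerProductSpace.toDual ℝ (E d)).symm.contDiff.contDiffAt.comp x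
    (h.fderiv_right (m := ∞) le_rfl)

theorem s1_contDiffAt_D2 (h : ContDiffAt ℝ ∞ u x) : ContDiffAt ℝ ∞ (D2 u) x :=
  (h.fderiv_right (m := ∞) le_rfl).fderiv_right (m := ∞) le_rfl

theorem s1_contDiffAt_D3 (h : ContDiffAt ℝ ∞ u x) : ContDiffAt ℝ ∞ (D3 u) x :=
  (s1_contDiffAt_D2 h).fderiv_right (m := ∞) le_rfl

theorem s1_hj (hU : IsOpen U) (h : Harm u U) (hx : x ∈ U) :
    HJ (u x, fderiv ℝ u x, D2 u x, D3 u x) := by
  have h3 := s1e_le (h x hx).1 3
  refine ⟨s1e_s2 (s1e_le (h x hx).1 2), fun a v w => congrArg (· w) (s1e_s3 h3 a v), s1e_s3' h3,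
    (h x hx).2, fun a => ?_⟩
  obtain ⟨L, hL⟩ := s1e_tr (d := d)
  exact (hL _).symm.trans (s1e_zero L (s1e_d2 h3)
    (mem_of_superset (hU.mem_nhds hx) fun y hy => (hL _).trans (h y hy).2) a)

theorem s1_D4_symm (h : ContDiffAt ℝ ∞ u x) (a b c e : E d) :
    D4 u x a b c e = D4 u x b a c e :=
  congrArg (· c e) (((((s1e_le h 4).fderiv_right (m := 3) (by norm_num)).fderiv_right (m := 2)
    (by norm_num)).isSymmSndFDerivAt (by simp)).eq a b)

theorem s1_D4_symm2 (h : ContDiffAt ℝ ∞ u x) (a b c e : E d) :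
    D4 u x a b c e = D4 u x a c b e := by
  obtain ⟨L, hL⟩ := s1e_ev3 b c e
  obtain ⟨L', hL'⟩ := s1e_ev3 c b e
  have := s1e_zero (L - L') ((s1_contDiffAt_D3 h).differentiableAt (by simp))
    ((s1e_ev (s1e_le h 3)).mono fun y hy => by
      rw [_root_.sub_apply, hL, hL', s1e_s3 hy, sub_self]) a
  rwa [_root_.sub_apply, hL, hL', sub_eq_zero] at this

theorem s1_D4_symm3 (h : ContDiffAt ℝ ∞ u x) (a b c e : E d) :
    D4 u x a b c e = D4 u x a b e c := by
  obtain ⟨L, hL⟩ := s1e_ev3 b c e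
  obtain ⟨L', hL'⟩ := s1e_ev3 b e c
  have := s1e_zero (L - L') ((s1_contDiffAt_D3 h).differentiableAt (by simp))
    ((s1e_ev (s1e_le h 3)).mono fun y hy => by
      rw [_root_.sub_apply, hL, hL', s1e_s3' hy, sub_self]) a
  rwa [_root_.sub_apply, hL, hL', sub_eq_zero] at this

theorem s1_D4_tr (hU : IsOpen U) (h : Harm u U) (hx : x ∈ U) (a b : E d) :
    tr (D4 u x a b) = 0 := by
  obtain ⟨L, hL⟩ := s1e_tr (d := d)
  exact (hL _).symm.trans (s1e_zero (L.comp (ContinuousLinearMap.apply ℝ (B2 d) b))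
    ((s1_contDiffAt_D3 (h x hx).1).differentiableAt (by simp))
    (mem_of_superset (hU.mem_nhds hx) fun y hy => (hL _).trans ((s1_hj hU h hy).t3 b)) a)

theorem s1_euler1 (hom : Hom u) (h : ContDiffAt ℝ ∞ u x) : ⟪gradient u x, x⟫ = u x :=
  InnerProductSpace.toDual_symm_apply.trans (s1e_eu1 hom (h.differentiableAt (by simp)))

theorem s1_euler2 (hom : Hom u) (h : ContDiffAt ℝ ∞ u x) : D2 u x x = 0 :=
  s1e_eu2 hom (s1e_le h 2)

theorem s1_euler3 (hom : Hom u) (h : ContDiffAt ℝ ∞ u x) : D3 u x x = -D2 u x := by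
  have h1 := (s1e_d2 (s1e_le h 3)).hasFDerivAt.clm_apply (hasFDerivAt_id x)
  have h2 := (hasFDerivAt_const (𝕜 := ℝ) (0 : B1 d) x).congr_of_eventuallyEq
    ((s1e_ev (s1e_le h 2)).mono fun y hy => s1e_eu2 hom hy)
  refine ContinuousLinearMap.ext fun a => ?_
  have h3 : D2 u x a + D3 u x a x = 0 := congrArg (· a) (h1.unique h2)
  rw [s1e_s3 (s1e_le h 3)]
  exact eq_neg_of_add_eq_zero_right h3

end Vale.Agent.P098
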