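import Vale.Agent.P098.S1.Low
import Vale.Agent.P098.S1.E.Main
import Vale.Agent.P098.S1.F.Main

/-!
# P098 Stage 1 (helper4): stable cones have vanishing Hessian in dimension at most six
-/

open MeasureTheory Filter Topology Set Metric
open scoped ContDiff RealInnerProductSpace NNReal

noncomputable section

namespace Vale.Agent.P098

theorem stage1 {d : ℕ} (hd : d ≤ 6) {u : E d → ℝ} (h : Cone u) : ∀ x, 0 < u x → D2 u x = 0 := by
  by_cases h2 : d ≤ 2
  · exact stage1_low h2 h.toPreCone
  · obtain ⟨c⟩ := cert_exists (d := d) (by omega) hd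
    exact cone_D2_zero (by omega) c h

end Vale.Agent.P098
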