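import Vale.Agent.P098.Basic

/-! P098 S1/Iface: the certificate interface between blocks E and F (FROZEN, owner helper4) -/

open MeasureTheory Filter Topology Set Metric
open scoped ContDiff RealInnerProductSpace NNReal

set_option maxSynthPendingDepth 3

noncomputable section

namespace Vale.Agent.P098

variable {d : ℕ}

/-- divergence of a vector field -/
def dvg (Z : E d → E d) (x : E d) : ℝ := ∑ i, fderiv ℝ Z x (bv i) i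

/-- the scale invariant function `φ(x) = Φ(∇u, u/|x|, |x| D²u)` -/
def phiOf (Φ : E d × ℝ × B2 d → ℝ) (u : E d → ℝ) (x : E d) : ℝ :=
  Φ (gradient u x, u x / ‖x‖, ‖x‖ • D2 u x)

/-- the scale invariant field `Y(x) = X(∇u, u/|x|, |x| D²u, |x|² D³u)` -/
def fldOf (X : E d × ℝ × B2 d × B3 d → E d) (u : E d → ℝ) (x : E d) : E d :=
  X (gradient u x, u x / ‖x‖, ‖x‖ • D2 u x, ‖x‖ ^ 2 • D3 u x)

/-- the algebraic certificate (produced by block F, used by block E) -/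
structure Cert (d : ℕ) where
  Φ : E d × ℝ × B2 d → ℝ
  X : E d × ℝ × B2 d × B3 d → E d
  al : ℝ
  del : ℝ
  al_pos : 0 < al
  al_lt : al < 1
  del_pos : 0 < del
  Φ_smooth : ContDiff ℝ ∞ Φ
  X_smooth : ContDiff ℝ ∞ X
  bdry : ∀ (x ν : E d) (S : B2 d) (T : B3 d), x ≠ 0 → ⟪x, ν⟫ = 0 → S x = 0 →
    SJ ν (0, innerSL ℝ ν, S, T) → S ν ν ≤ 0 → 0 ≤ ⟪X (ν, 0, S, T), ν⟫ - S ν ν * Φ (ν, 0, S)
  phi_pos : ∀ (u : E d → ℝ) (U : Set (E d)), IsOpen U → Harm u U → Hom u →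
    ∀ x ∈ U, x ≠ 0 → 0 ≤ u x → ‖gradient u x‖ ≤ 1 →
      0 ≤ phiOf Φ u x ∧ (phiOf Φ u x = 0 → D2 u x = 0)
  key : ∀ (u : E d → ℝ) (U : Set (E d)), IsOpen U → Harm u U → Hom u →
    ∀ x ∈ U, x ≠ 0 → 0 ≤ u x → ‖gradient u x‖ ≤ 1 → ∀ w : E d, ⟪w, x⟫ = 0 →
      (((d : ℝ) - 2) ^ 2 / 4 + del) * phiOf Φ u x ≤
        ‖x‖ * dvg (fldOf X u) x - ((d : ℝ) - 1) * (⟪fldOf X u x, x⟫ / ‖x‖)
          + (2 - 2 / al) * ⟪w, fldOf X u x⟫ - ‖x‖ * fderiv ℝ (phiOf Φ u) x w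
          + (2 / al - 1) * phiOf Φ u x * ‖w‖ ^ 2

end Vale.Agent.P098
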