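import Vale.Agent.P098.S1.Euler

/-! P098 S1/Low: dimensions at most two.
Plan: u 0 = 0 by Hom so x ≠ 0; S = D2 u x is symmetric, traceless (s1_hj) and S x = 0 (s1_euler2);
interval_cases d, write S through its matrix entries S (bv i) (bv j) and x = sum x i • bv i. -/

open MeasureTheory Filter Topology Set Metric
open scoped ContDiff RealInnerProductSpace NNReal

set_option maxSynthPendingDepth 3

noncomputable section

namespace Vale.Agent.P098

variable {d : ℕ}

theorem low_expand (v : E d) : v = ∑ i, v i • bv i := by
  ext j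
  simp [bv, Finset.sum_apply, Pi.single_apply]

theorem low_alg (hd : d ≤ 2) (S : B2 d) (hs : ∀ v w, S v w = S w v) (ht : tr S = 0) {x : E d}
    (hx : x ≠ 0) (h0 : S x = 0) : S = 0 := by
  have hz : ∀ i j, S (bv i) (bv j) = 0 := by
    have hk : ∀ j, ∑ i, x i * S (bv i) (bv j) = 0 := by
      intro j
      have h1 : S x (bv j) = 0 := by rw [h0]; rfl
      conv at h1 => lhs; rw [low_expand x]
      simpa only [map_sum, map_smul, ContinuousLinearMap.sum_apply,
        ContinuousLinearMap.smul_apply, smul_eq_mul] using h1
    unfold tr at ht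
    have hd' : d = 0 ∨ d = 1 ∨ d = 2 := by omega
    rcases hd' with rfl | rfl | rfl
    · intro i
      exact i.elim0
    · intro i j
      rw [Fin.sum_univ_one] at ht
      rw [Subsingleton.elim i 0, Subsingleton.elim j 0]
      exact ht
    · rw [Fin.sum_univ_two] at ht
      have h1 := hk 0
      have h2 := hk 1
      rw [Fin.sum_univ_two] at h1 h2
      have h3 := hs (bv 1) (bv 0)
      have hpos : 0 < x 0 ^ 2 + x 1 ^ 2 := by
        by_contra hc
        apply hx
        have a0 : x 0 = 0 := by nlinarith [sq_nonneg (x 0), sq_nonneg (x 1)]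
        have a1 : x 1 = 0 := by nlinarith [sq_nonneg (x 0), sq_nonneg (x 1)]
        ext i
        fin_cases i
        · exact a0
        · exact a1
      have e11 : S (bv 1) (bv 1) = -S (bv 0) (bv 0) := by linarith
      rw [h3] at h1
      rw [e11] at h2
      have a : S (bv 0) (bv 0) = 0 := by
        have : S (bv 0) (bv 0) * (x 0 ^ 2 + x 1 ^ 2) = 0 := by
          linear_combination x 0 * h1 - x 1 * h2
        exact (mul_eq_zero.1 this).resolve_right hpos.ne'
      have b : S (bv 0) (bv 1) = 0 := by
        have : S (bv 0) (bv 1) * (x 0 ^ 2 + x 1 ^ 2) = 0 := by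
          linear_combination x 1 * h1 + x 0 * h2
        exact (mul_eq_zero.1 this).resolve_right hpos.ne'
      intro i j
      fin_cases i <;> fin_cases j
      · exact a
      · exact b
      · exact h3.trans b
      · show S (bv 1) (bv 1) = 0
        rw [e11, a, neg_zero]
  ext v w
  show S v w = 0
  conv_lhs => rw [low_expand v, low_expand w]
  simp only [map_sum, map_smul, ContinuousLinearMap.sum_apply, ContinuousLinearMap.smul_apply,
    smul_eq_mul, hz, mul_zero, Finset.sum_const_zero]

theorem stage1_low (hd : d ≤ 2) {u : E d → ℝ} (h : PreCone u) : ∀ x, 0 < u x → D2 u x = 0 := by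
  intro x hx
  obtain ⟨L, hL⟩ := h.lip
  have hU : IsOpen {x | 0 < u x} := isOpen_lt continuous_const hL.continuous
  have hj := s1_hj hU h.harm hx
  have hx0 : x ≠ 0 := by
    intro h0
    have h1 := h.hom 2 two_pos 0
    rw [smul_zero] at h1
    rw [h0] at hx
    linarith
  exact low_alg hd (D2 u x) hj.s2 hj.t2 hx0 (s1_euler2 h.hom (h.harm x hx).1)

end Vale.Agent.P098
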